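import Vale.Agent.P211.HK.Fin2
import Vale.Agent.P211.HK.HKTop
import Vale.Agent.P211.HK.IXfin
import Vale.Agent.P211.HK.S22Fin
import Vale.Agent.P211.H210.CoreProof

open scoped Manifold ContDiff
open Bundle Vale.Agent.P211.NN Vale.Agent.P211.HK

/-- Closed four-manifolds `(M, g)` with `Ric = lam g`, `lam > 0`, and nonnegative sectional
curvature; `dist` is the Riemannian distance and `cov` the Levi-Civita connection of `g`.
(1) If `M` is simply connected, `M` is isometric to the round sphere of radius `√(3 / lam)`, to the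
complex projective plane with the Fubini-Study distance `√(6 / lam) * arccos |⟨z, w⟩|`, or to the
product of two round two-spheres of radius `√(1 / lam)`. (2) If `M` is oriented, `M` is isometric to
this sphere or to this complex projective plane, or `g` is locally symmetric with the curvature
tensor of the product of two round two-spheres of curvature `lam`. (3) If `K > 0` at one point, and
`M` is orientable or simply connected, `M` is isometric to this sphere or to this complex projective
plane. -/
theorem Vale.Agent.Results.P211.EinsteinIsometric.result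
    {E : Type} [NormedAddCommGroup E] [NormedSpace ℝ E] [FiniteDimensional ℝ E]
    (hdim : Module.finrank ℝ E = 4)
    {M : Type} [MetricSpace M] [CompactSpace M] [ConnectedSpace M]
    [ChartedSpace E M] [IsManifold 𝓘(ℝ, E) ∞ M]
    [RiemannianBundle fun p : M => TangentSpace 𝓘(ℝ, E) p]
    [IsContMDiffRiemannianBundle 𝓘(ℝ, E) ∞ E fun p : M => TangentSpace 𝓘(ℝ, E) p]
    [IsRiemannianManifold 𝓘(ℝ, E) M]
    (cov : CovariantDerivative 𝓘(ℝ, E) E (TangentSpace 𝓘(ℝ, E) : M → Type))
    (hs : cov.ContMDiffCovariantDerivative ∞) (ht : cov.torsion = 0)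
    (hm : CovariantDerivative.IsMetricCompatible (V := (TangentSpace 𝓘(ℝ, E) : M → Type)) cov)
    (hK : SecNonneg cov) {lam : ℝ} (hlam : 0 < lam) (hR : RicciEq cov (fun _ => lam)) :
    (SimplyConnectedSpace M →
      IsRoundS4 M √(3 / lam) ∨ IsFubiniStudyCP2 M √(6 / lam) ∨ IsRoundS2S2 M √(1 / lam)) ∧
    (∀ om : (p : M) → TangentSpace 𝓘(ℝ, E) p [⋀^Fin 4]→ₗ[ℝ] ℝ, IsOrientation om →
      IsRoundS4 M √(3 / lam) ∨ IsFubiniStudyCP2 M √(6 / lam) ∨ LocallyProduct cov lam) ∧
    ((∃ p : M, ∀ X Y : SmoothField E M, LinearIndependent ℝ ![X p, Y p] →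
        0 < Rm cov X Y Y X p) →
      ((∃ om : (p : M) → TangentSpace 𝓘(ℝ, E) p [⋀^Fin 4]→ₗ[ℝ] ℝ, IsOrientation om) ∨
        SimplyConnectedSpace M) →
      IsRoundS4 M √(3 / lam) ∨ IsFubiniStudyCP2 M √(6 / lam)) := by
  let _ : MeasurableSpace M := borel M
  have _ : BorelSpace M := ⟨rfl⟩
  obtain ⟨h1, h2, h3⟩ := finConcl_of2 Vale.Agent.P211.H210.core hdim hs ht hm hK hlam hR
    (fun om => IX.ix cov om lam (hkMain cov om)) (fun om => S22.s22 (om := om) (lam := lam))
  exact ⟨h2, h1, h3⟩
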